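import Mathlib

/-!
# Approximate duality, block B3: rising sun and potential (helper154)

Real analysis only.
-/

set_option autoImplicit false

open Finset

namespace Vale.Agent.P091.AD.H154

/-- `i` is good for `f` with slope `G`: all backward increments are `≤ G s` -/
def Good (f : ℕ → ℝ) (G : ℝ) (i : ℕ) : Prop := ∀ s ≤ i, f i - f (i - s) ≤ G * s

/-- **rising sun**: the number of bad indices `≤ m` is at most `(f m - f 0) / G` -/
theorem rising_sun (f : ℕ → ℝ) (G : ℝ) (hG : 0 < G) (I : ℕ)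
    (hf : ∀ i j, i ≤ j → j ≤ I → f i ≤ f j) [DecidablePred fun i => ¬ Good f G i] :
    ∀ m ≤ I, G * (((range (m + 1)).filter fun i => ¬ Good f G i).card : ℝ) ≤ f m - f 0 := by
  intro m
  induction m using Nat.strong_induction_on with
  | _ m ih =>
    intro hm
    by_cases hg : Good f G m
    · -- `m` is good
      rcases Nat.eq_zero_or_pos m with rfl | hm0
      · have h1 : ((range (0 + 1)).filter fun i => ¬ Good f G i) = ∅ := by
          rw [filter_eq_empty_iff]
          intro i hi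
          rw [mem_range] at hi
          have : i = 0 := by omega
          subst this
          exact not_not.2 hg
        rw [h1]; simp
      · have h1 : ((range (m + 1)).filter fun i => ¬ Good f G i) =
            ((range (m - 1 + 1)).filter fun i => ¬ Good f G i) := by
          ext i
          simp only [mem_filter, mem_range]
          constructor
          · rintro ⟨h1, h2⟩
            refine ⟨?_, h2⟩
            have : i ≠ m := fun h => h2 (h ▸ hg)
            omega
          · rintro ⟨h1, h2⟩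
            exact ⟨by omega, h2⟩
        rw [h1]
        have h2 := ih (m - 1) (by omega) (by omega)
        have h3 := hf (m - 1) m (by omega) hm
        linarith
    · -- `m` is bad
      have hb := hg
      unfold Good at hb
      push Not at hb
      obtain ⟨s, hs, hlt⟩ := hb
      have hs0 : 0 < s := by
        rcases Nat.eq_zero_or_pos s with rfl | h
        · simp at hlt
        · exact h
      have h2 := ih (m - s) (by omega) (by omega)
      have h3 : (((range (m + 1)).filter fun i => ¬ Good f G i).card : ℝ) ≤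
          (((range (m - s + 1)).filter fun i => ¬ Good f G i).card : ℝ) + s := by
        have h4 : ((range (m + 1)).filter fun i => ¬ Good f G i) ⊆
            ((range (m - s + 1)).filter fun i => ¬ Good f G i) ∪ Ico (m - s + 1) (m + 1) := by
          intro i hi
          simp only [mem_filter, mem_range, mem_union, mem_Ico] at hi ⊢
          by_cases h : i < m - s + 1
          · exact Or.inl ⟨h, hi.2⟩
          · exact Or.inr ⟨by omega, hi.1⟩
        have h5 := (card_le_card h4).trans (card_union_le _ _)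
        rw [Nat.card_Ico] at h5
        have h6 : m + 1 - (m - s + 1) = s := by omega
        rw [h6] at h5
        exact_mod_cast h5
      have h7 := mul_le_mul_of_nonneg_left h3 hG.le
      rw [mul_add] at h7
      linarith

/-- **a common good index** -/
theorem exists_good (f g : ℕ → ℝ) (G M : ℝ) (I t : ℕ) (hI : 8 ≤ I) (ht : 4 * t ≤ I)
    (hM : 8 * M ≤ G * I) (hG : 0 < G)
    (hf : ∀ i j, i ≤ j → j ≤ I → f i ≤ f j) (hf0 : 0 ≤ f 0) (hfM : f I ≤ M)
    (hg : ∀ i j, i ≤ j → j ≤ I → g i ≤ g j) (hg0 : 0 ≤ g 0) (hgM : g I ≤ M) :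
    ∃ i, I ≤ 4 * i ∧ 4 * i ≤ 3 * I ∧ Good f G i ∧ Good g G (I + t - i) := by
  classical
  by_contra hcon
  push Not at hcon
  set S : Finset ℕ := (range (I + 1)).filter fun i => I ≤ 4 * i ∧ 4 * i ≤ 3 * I with hS
  set Bf := (range (I + 1)).filter fun i => ¬ Good f G i with hBf
  set Bg := (range (I + 1)).filter fun i => ¬ Good g G i with hBg
  have h1 : S ⊆ Bf ∪ Bg.image fun j => I + t - j := by
    intro i hi
    simp only [hS, mem_filter, mem_range] at hi
    rw [mem_union]
    by_cases h : Good f G i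
    · right
      have h2 := hcon i hi.2.1 hi.2.2 h
      refine mem_image.2 ⟨I + t - i, ?_, by omega⟩
      simp only [hBg, mem_filter, mem_range]
      exact ⟨by omega, h2⟩
    · left
      simp only [hBf, mem_filter, mem_range]
      exact ⟨by omega, h⟩
  have h2 : S.card ≤ Bf.card + Bg.card :=
    ((card_le_card h1).trans (card_union_le _ _)).trans (Nat.add_le_add_left card_image_le _)
  have h3 := rising_sun f G hG I hf I le_rfl
  have h4 := rising_sun g G hG I hg I le_rfl
  -- the number of candidates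
  have h5 : I ≤ 2 * S.card + 2 := by
    have h6 : Icc ((I + 3) / 4) (3 * I / 4) ⊆ S := by
      intro i hi
      rw [mem_Icc] at hi
      simp only [hS, mem_filter, mem_range]
      omega
    have h7 := card_le_card h6
    rw [Nat.card_Icc] at h7
    omega
  have h8 : G * (Bf.card : ℝ) ≤ M := by
    have : f I - f 0 ≤ M := by linarith
    exact h3.trans this
  have h9 : G * (Bg.card : ℝ) ≤ M := by
    have : g I - g 0 ≤ M := by linarith
    exact h4.trans this
  have h10 : (I : ℝ) ≤ 2 * ((Bf.card : ℝ) + Bg.card) + 2 := by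
    have : I ≤ 2 * (Bf.card + Bg.card) + 2 := by omega
    exact_mod_cast this
  have h11 : G * I ≤ 2 * (M + M) + 2 * G := by
    have := mul_le_mul_of_nonneg_left h10 hG.le
    nlinarith
  have h12 : (8 : ℝ) ≤ I := by exact_mod_cast hI
  have h13 : G * 8 ≤ G * I := mul_le_mul_of_nonneg_left h12 hG.le
  nlinarith

/-- one step of the potential -/
theorem potential_step (f f' : ℕ → ℝ) (G M : ℝ) (I i : ℕ) (hG : 0 < G) (hM : 4 * M ≤ G * I)
    (hi : i ≤ I) (hi4 : I ≤ 4 * i)
    (hf : ∀ a b, a ≤ b → b ≤ I → f a ≤ f b) (hfM : f I ≤ M)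
    (hf' : ∀ a b, a ≤ b → b ≤ I → f' a ≤ f' b) (hf'0 : 0 ≤ f' 0)
    (hle : ∀ a ≤ I, f' a ≤ f a) (hgood : Good f G i) :
    (f i - f' i) ^ 2 ≤ 2 * G * (∑ a ∈ range (I + 1), f a - ∑ a ∈ range (I + 1), f' a) := by
  set D := f i - f' i with hD
  have hD0 : 0 ≤ D := by have := hle i hi; rw [hD]; linarith
  have hDM : D ≤ M := by
    have h1 := hf i I hi le_rfl
    have h2 := hf' 0 i (Nat.zero_le _) hi
    rw [hD]; linarith
  -- the number of indices
  set m : ℕ := ⌊D / G⌋₊ with hm
  have hm1 : (m : ℝ) * G ≤ D := by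
    have := Nat.floor_le (div_nonneg hD0 hG.le)
    rw [← hm] at this
    rwa [le_div_iff₀ hG] at this
  have hm2 : D < ((m : ℝ) + 1) * G := by
    have := Nat.lt_floor_add_one (D / G)
    rw [← hm] at this
    rwa [div_lt_iff₀ hG] at this
  have hmi : m ≤ i := by
    have h1 : (m : ℝ) * G ≤ M := hm1.trans hDM
    have h2 : 4 * ((m : ℝ) * G) ≤ G * I := by linarith
    have h3 : 4 * (m : ℝ) ≤ I := by
      have : G * (4 * (m : ℝ)) ≤ G * I := by linarith
      exact le_of_mul_le_mul_left this hG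
    have h4 : 4 * m ≤ I := by exact_mod_cast h3
    omega
  -- the lower bound of the decrement
  have h1 : ∑ s ∈ range (m + 1), (D - G * s) ≤
      ∑ a ∈ range (I + 1), (f a - f' a) := by
    have h2 : ∑ s ∈ range (m + 1), (D - G * s) ≤ ∑ s ∈ range (m + 1), (f (i - s) - f' (i - s)) := by
      refine sum_le_sum fun s hs => ?_
      rw [mem_range] at hs
      have h3 := hgood s (by omega)
      have h4 := hf' (i - s) i (Nat.sub_le _ _) hi
      rw [hD]; linarith
    refine h2.trans ?_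
    have h3 : ∑ s ∈ range (m + 1), (f (i - s) - f' (i - s)) =
        ∑ a ∈ (range (m + 1)).image fun s => i - s, (f a - f' a) := by
      rw [sum_image]
      intro a ha b hb hab
      rw [Finset.coe_range, Set.mem_Iio] at ha hb
      simp only at hab
      omega
    rw [h3]
    refine sum_le_sum_of_subset_of_nonneg ?_ ?_
    · intro a ha
      obtain ⟨s, _, rfl⟩ := mem_image.1 ha
      rw [mem_range]; omega
    · intro a ha _
      rw [mem_range] at ha
      have := hle a (by omega)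
      linarith
  have h2 : ∑ s ∈ range (m + 1), (D - G * s) = ((m : ℝ) + 1) * (D - G * m / 2) := by
    clear_value m
    clear hm hm1 hm2 hmi h1
    induction m with
    | zero => simp
    | succ k ih =>
      rw [sum_range_succ, ih]
      push_cast
      ring
  rw [← sum_sub_distrib]
  have h3 : D ^ 2 ≤ 2 * G * (((m : ℝ) + 1) * (D - G * m / 2)) := by
    have h4 : D / 2 ≤ D - G * m / 2 := by linarith
    have h5 : (0 : ℝ) ≤ D / 2 := by linarith
    have h6 : D * (D / 2) ≤ ((m : ℝ) + 1) * G * (D - G * m / 2) :=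
      mul_le_mul hm2.le h4 h5 (by positivity)
    nlinarith
  rw [h2] at h1
  have h4 := mul_le_mul_of_nonneg_left h1 (by positivity : (0 : ℝ) ≤ 2 * G)
  linarith

/-- **the potential** -/
theorem potential (ψ : ℕ → ℕ → ℝ) (i : ℕ → ℕ) (G M : ℝ) (I n : ℕ) (hG : 0 < G)
    (hM : 4 * M ≤ G * I) (hi : ∀ t < n, i t ≤ I) (hi4 : ∀ t < n, I ≤ 4 * i t)
    (hmono : ∀ t ≤ n, ∀ a b, a ≤ b → b ≤ I → ψ t a ≤ ψ t b) (h0 : ∀ t ≤ n, 0 ≤ ψ t 0)
    (hψM : ∀ t ≤ n, ψ t I ≤ M) (hle : ∀ t < n, ∀ a ≤ I, ψ (t + 1) a ≤ ψ t a)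
    (hgood : ∀ t < n, Good (ψ t) G (i t)) :
    ∑ t ∈ range n, (ψ t (i t) - ψ (t + 1) (i t)) ^ 2 ≤ 2 * G * ((I + 1) * M) := by
  have key : ∀ k ≤ n, ∑ t ∈ range k, (ψ t (i t) - ψ (t + 1) (i t)) ^ 2 ≤
      2 * G * (∑ a ∈ range (I + 1), ψ 0 a - ∑ a ∈ range (I + 1), ψ k a) := by
    intro k
    induction k with
    | zero => intro _; simp
    | succ k ih =>
      intro hk
      have h1 := ih (by omega)
      have h2 := potential_step (ψ k) (ψ (k + 1)) G M I (i k) hG hM (hi k (by omega))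
        (hi4 k (by omega)) (hmono k (by omega)) (hψM k (by omega)) (hmono (k + 1) hk)
        (h0 (k + 1) hk) (hle k (by omega)) (hgood k (by omega))
      rw [sum_range_succ]
      linarith
  refine (key n le_rfl).trans ?_
  have h1 : ∑ a ∈ range (I + 1), ψ 0 a ≤ (I + 1) * M := by
    have h2 : ∑ a ∈ range (I + 1), ψ 0 a ≤ ∑ _a ∈ range (I + 1), M := by
      refine sum_le_sum fun a ha => ?_
      rw [mem_range] at ha
      exact (hmono 0 (Nat.zero_le _) a I (by omega) le_rfl).trans (hψM 0 (Nat.zero_le _))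
    rw [sum_const, card_range, nsmul_eq_mul] at h2
    push_cast at h2
    exact h2
  have h2 : 0 ≤ ∑ a ∈ range (I + 1), ψ n a := by
    refine sum_nonneg fun a ha => ?_
    rw [mem_range] at ha
    exact (h0 n le_rfl).trans (hmono n le_rfl 0 a (Nat.zero_le _) (by omega))
  have h3 : ∑ a ∈ range (I + 1), ψ 0 a - ∑ a ∈ range (I + 1), ψ n a ≤ (I + 1) * M := by linarith
  exact mul_le_mul_of_nonneg_left h3 (by positivity)

/-- **the potential**, first powers -/
theorem potential_sum (ψ : ℕ → ℕ → ℝ) (i : ℕ → ℕ) (G M : ℝ) (I n : ℕ) (hG : 0 < G)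
    (hM : 4 * M ≤ G * I) (hi : ∀ t < n, i t ≤ I) (hi4 : ∀ t < n, I ≤ 4 * i t)
    (hmono : ∀ t ≤ n, ∀ a b, a ≤ b → b ≤ I → ψ t a ≤ ψ t b) (h0 : ∀ t ≤ n, 0 ≤ ψ t 0)
    (hψM : ∀ t ≤ n, ψ t I ≤ M) (hle : ∀ t < n, ∀ a ≤ I, ψ (t + 1) a ≤ ψ t a)
    (hgood : ∀ t < n, Good (ψ t) G (i t)) :
    ∑ t ∈ range n, (ψ t (i t) - ψ (t + 1) (i t)) ≤ √(n * (2 * G * ((I + 1) * M))) := by
  have h1 := potential ψ i G M I n hG hM hi hi4 hmono h0 hψM hle hgood
  apply Real.le_sqrt_of_sq_le
  have h2 := sq_sum_le_card_mul_sum_sq (s := range n)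
    (f := fun t => ψ t (i t) - ψ (t + 1) (i t))
  rw [card_range] at h2
  exact h2.trans (mul_le_mul_of_nonneg_left h1 (Nat.cast_nonneg _))

/-- constants of the text: `M = 1.4 R`, `G = 12 R / I`: the sum is `≤ 7 R √n` -/
theorem potential_sum' (ψ : ℕ → ℕ → ℝ) (i : ℕ → ℕ) (R : ℝ) (I n : ℕ) (hR : 0 < R) (hI : 8 ≤ I)
    (hi : ∀ t < n, i t ≤ I) (hi4 : ∀ t < n, I ≤ 4 * i t)
    (hmono : ∀ t ≤ n, ∀ a b, a ≤ b → b ≤ I → ψ t a ≤ ψ t b) (h0 : ∀ t ≤ n, 0 ≤ ψ t 0)
    (hψM : ∀ t ≤ n, ψ t I ≤ 7 / 5 * R) (hle : ∀ t < n, ∀ a ≤ I, ψ (t + 1) a ≤ ψ t a)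
    (hgood : ∀ t < n, Good (ψ t) (12 * R / I) (i t)) :
    ∑ t ∈ range n, (ψ t (i t) - ψ (t + 1) (i t)) ≤ 7 * R * √n := by
  have hI0 : (0 : ℝ) < I := by
    have : 0 < I := by omega
    exact_mod_cast this
  have hI8 : (8 : ℝ) ≤ I := by exact_mod_cast hI
  have hG : 0 < 12 * R / I := by positivity
  have hM : 4 * (7 / 5 * R) ≤ 12 * R / I * I := by
    rw [div_mul_cancel₀ _ hI0.ne']
    linarith
  refine (potential_sum ψ i _ _ I n hG hM hi hi4 hmono h0 hψM hle hgood).trans ?_
  rw [show 7 * R * √n = √((7 * R) ^ 2 * n) by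
    rw [Real.sqrt_mul (by positivity), Real.sqrt_sq (by positivity)]]
  apply Real.sqrt_le_sqrt
  rw [mul_comm]
  refine mul_le_mul_of_nonneg_right ?_ (Nat.cast_nonneg _)
  have h1 : 2 * (12 * R / I) * (((I : ℝ) + 1) * (7 / 5 * R)) = 168 / 5 * R ^ 2 * (1 + 1 / I) := by
    field_simp
    ring
  rw [h1]
  have h2 : (1 : ℝ) / I ≤ 1 / 8 := one_div_le_one_div_of_le (by norm_num) hI8
  nlinarith [sq_nonneg R]

/-- constants of the text for the good index -/
theorem exists_good' (f g : ℕ → ℝ) (R : ℝ) (I t : ℕ) (hR : 0 < R) (hI : 8 ≤ I) (ht : 4 * t ≤ I)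
    (hf : ∀ i j, i ≤ j → j ≤ I → f i ≤ f j) (hf0 : 0 ≤ f 0) (hfM : f I ≤ 7 / 5 * R)
    (hg : ∀ i j, i ≤ j → j ≤ I → g i ≤ g j) (hg0 : 0 ≤ g 0) (hgM : g I ≤ 7 / 5 * R) :
    ∃ i, I ≤ 4 * i ∧ 4 * i ≤ 3 * I ∧ Good f (12 * R / I) i ∧ Good g (12 * R / I) (I + t - i) := by
  have hI0 : (0 : ℝ) < I := by
    have : 0 < I := by omega
    exact_mod_cast this
  refine exists_good f g _ (7 / 5 * R) I t hI ht ?_ (by positivity) hf hf0 hfM hg hg0 hgM
  rw [div_mul_cancel₀ _ hI0.ne']
  linarith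

end Vale.Agent.P091.AD.H154
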